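import Vale.Agent.H53.Kurosh.Descent

/-!
# Right-handed descent of algebraicity over a noncentral subfield to the centre

The right-handed version of `Vale.Agent.H53.Kurosh.not_linearIndependent_pow_of_forall_conj`,
obtained by passing to the opposite division ring.
-/

namespace Vale.Agent.H5

open MulOpposite

universe u v w

variable {F : Type v} {D : Type u} [Field F] [DivisionRing D] [Algebra F D]

/-- The opposite of a central algebra is central. -/
theorem isCentral_mulOpposite [Algebra.IsCentral F D] : Algebra.IsCentral F Dᵐᵒᵖ := by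
  constructor
  intro z hz
  rw [Subalgebra.mem_center_iff] at hz
  have hz' : unop z ∈ Subalgebra.center F D := by
    rw [Subalgebra.mem_center_iff]
    intro b
    have := hz (op b)
    have h2 := congrArg unop this
    simp only [unop_mul, unop_op] at h2
    exact h2.symm
  have h3 := Algebra.IsCentral.out (K := F) (D := D) hz'
  rw [Algebra.mem_bot] at h3 ⊢
  obtain ⟨a, ha⟩ := h3
  refine ⟨a, ?_⟩
  rw [MulOpposite.algebraMap_apply, ha, op_unop]

theorem not_linearIndependent_pow_of_forall_conj_right [Algebra.IsCentral F D] {K : Type w}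
    [Field K] (ι : K →+* D) (d : ℕ) (x : D)
    (h : ∀ y : D, y ≠ 0 → ∃ α : Fin (d + 1) → K, α ≠ 0 ∧
      ∑ i : Fin (d + 1), (y * x * y⁻¹) ^ (i : ℕ) * ι (α i) = 0) :
    ¬ LinearIndependent F (fun i : Fin (d + 1) => x ^ (i : ℕ)) := by
  classical
  have hc : Algebra.IsCentral F Dᵐᵒᵖ := isCentral_mulOpposite
  let ι' : K →+* Dᵐᵒᵖ := ι.toOpposite (fun a b => (Commute.all a b).map ι)
  have hι' : ∀ k, ι' k = op (ι k) := fun k => rfl
  have key : ¬ LinearIndependent F (fun i : Fin (d + 1) => (op x : Dᵐᵒᵖ) ^ (i : ℕ)) := by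
    apply Vale.Agent.H53.Kurosh.not_linearIndependent_pow_of_forall_conj ι' d (op x)
    intro y' hy'
    have hy : (unop y')⁻¹ ≠ 0 := by
      apply inv_ne_zero
      intro h0
      apply hy'
      rw [← op_unop y', h0, op_zero]
    obtain ⟨α, hα, hsum⟩ := h (unop y')⁻¹ hy
    refine ⟨α, hα, ?_⟩
    have hconj : y' * op x * y'⁻¹ = op ((unop y')⁻¹ * x * ((unop y')⁻¹)⁻¹) := by
      rw [inv_inv, op_mul, op_mul, op_unop, op_inv, op_unop, mul_assoc]
    have hterm : ∀ i : Fin (d + 1), ι' (α i) * (y' * op x * y'⁻¹) ^ (i : ℕ)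
        = op (((unop y')⁻¹ * x * ((unop y')⁻¹)⁻¹) ^ (i : ℕ) * ι (α i)) := by
      intro i
      rw [hconj, hι', ← op_pow, ← op_mul]
    rw [Finset.sum_congr rfl (fun i _ => hterm i), ← Finset.op_sum, hsum, op_zero]
  intro hli
  apply key
  have h1 := hli.map' (opLinearEquiv F : D ≃ₗ[F] Dᵐᵒᵖ).toLinearMap (LinearEquiv.ker _)
  have h2 : (fun i : Fin (d + 1) => (op x : Dᵐᵒᵖ) ^ (i : ℕ))
      = (⇑(opLinearEquiv F : D ≃ₗ[F] Dᵐᵒᵖ).toLinearMap ∘ fun i : Fin (d + 1) => x ^ (i : ℕ)) := by
    funext i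
    simp [op_pow]
  rw [h2]
  exact h1

end Vale.Agent.H5
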